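import Mathlib

/-!
# Sums over the positions of a word of functions of the letter counts of the part read before
-/

namespace Vale.Agent.Lib.P329

variable {α : Type}

open Classical in
/-- add one to the count of the letter `a` -/
noncomputable def bump (c : α → ℕ) (a : α) : α → ℕ := fun z => if z = a then c z + 1 else c z

open Classical in
/-- the sum, over the positions of `w` that carry the letter `x`, of `F` applied to the vector of
letter counts of the part of the word read before that position (the counts start at `c`) -/
noncomputable def tsum (F : (α → ℕ) → ℕ) (x : α) : (α → ℕ) → List α → ℕ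
  | _, [] => 0
  | c, a :: w => (if a = x then F c else 0) + tsum F x (bump c a) w

theorem bump_same (c : α → ℕ) (a : α) : bump c a a = c a + 1 := by simp [bump]

theorem bump_ne (c : α → ℕ) {a z : α} (h : z ≠ a) : bump c a z = c z := by simp [bump, h]

theorem tsum_nil (F : (α → ℕ) → ℕ) (x : α) (c : α → ℕ) : tsum F x c [] = 0 := rfl

open Classical in
theorem tsum_cons (F : (α → ℕ) → ℕ) (x : α) (c : α → ℕ) (a : α) (w : List α) :
    tsum F x c (a :: w) = (if a = x then F c else 0) + tsum F x (bump c a) w := rfl

end Vale.Agent.Lib.P329
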