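import Vale.Agent.Lib.P329.Count

/-!
# Counting a neutral letter at the phases of a cyclic counter with increments zero and one
-/

namespace Vale.Agent.Lib.P329

variable {α : Type}

section Reset

variable {H : Type} [Group H] (ψ : α → H) (cls : α → Cls) (c : H)

open Classical in
/-- the number of letters that move the phase -/
noncomputable def movers (v : List α) : ℕ := v.countP (fun z => decide (ψ z ≠ 1))

theorem movers_nil : movers ψ ([] : List α) = 0 := rfl

theorem movers_cons_of_eq {z : α} (hz : ψ z = 1) (v : List α) :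
    movers ψ (z :: v) = movers ψ v := by
  unfold movers
  rw [List.countP_cons_of_neg (by simpa using hz)]

theorem movers_cons_of_ne {z : α} (hz : ψ z ≠ 1) (v : List α) :
    movers ψ (z :: v) = movers ψ v + 1 := by
  unfold movers
  rw [List.countP_cons_of_pos (by simpa using hz)]

theorem movers_append (u v : List α) : movers ψ (u ++ v) = movers ψ u + movers ψ v := by
  unfold movers
  rw [List.countP_append]

theorem movers_rep (k : ℕ) (u : List α) : movers ψ (rep k u) = k * movers ψ u := by
  induction k with
  | zero => simp [rep_zero, movers_nil]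
  | succ k ih => rw [rep_succ, movers_append, ih]; ring

theorem movers_pos_of_mem {u : List α} {z : α} (hz : z ∈ u) (hne : ψ z ≠ 1) : 0 < movers ψ u := by
  unfold movers
  exact List.countP_pos_iff.2 ⟨z, hz, by simpa using hne⟩

variable (t : H) (h01 : ∀ z, ψ z = 1 ∨ ψ z = t) (ho : ∀ z, ψ z ≠ 1 → cls z = Cls.o)

include h01 ho in
theorem movers_le_of_avoid {s q : Option Bool × H} {v : List α} {j : ℕ}
    (hA : Avoid (rstep ψ cls c) (rbase c) s q v) (hs : s.2 * t ^ (j + 1) = c) :
    movers ψ v ≤ j := by
  induction v generalizing s j with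
  | nil => simp [movers_nil]
  | cons z v ih =>
    by_cases hz : ψ z = 1
    · rw [movers_cons_of_eq ψ hz]
      refine ih hA.2 ?_
      rw [rstep_snd, hz, mul_one, hs]
    · have hzt : ψ z = t := (h01 z).resolve_left hz
      rw [movers_cons_of_ne ψ hz]
      cases j with
      | zero =>
        exfalso
        apply hA.1
        rw [rstep_eq_base_iff, hzt, ho z hz]
        refine ⟨by simpa using hs, rfl⟩
      | succ j =>
        have := ih (j := j) hA.2 (by rw [rstep_snd, hzt, ← hs, pow_succ' t (j + 1), mul_assoc])
        omega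

variable (hg : Good ψ cls) (hgen : ∀ d : H, ∃ j : ℕ, t ^ j = d)

include hg hgen h01 ho in
/-- the reset automaton of a cyclic counter with increments zero and one is counter-free off its
base state -/
theorem counterFreeOff_rstep_mono : CounterFreeOff (rstep ψ cls c) (rbase c) := by
  intro u x k hk hA
  have hmul : ∀ j, Avoid (rstep ψ cls c) (rbase c) x x (rep (k * j) u) := by
    intro j
    induction j with
    | zero => exact rfl
    | succ j ih =>
      rw [Nat.mul_succ, rep_add, avoid_append, Avoid.run_eq _ _ ih]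
      exact ⟨ih, hA⟩
  have hrep : ∀ j, Avoid (rstep ψ cls c) (rbase c) x (run (rstep ψ cls c) x (rep j u)) (rep j u) := by
    intro j
    have h := hmul j
    have hj : k * j = j + (k * j - j) := by
      have : j ≤ k * j := Nat.le_mul_of_pos_left j hk
      omega
    rw [hj, rep_add, avoid_append] at h
    exact h.1
  by_cases hu : ev ψ u = 1
  · have h1 := hrep 1
    have h2 := hrep 2
    have e1 : rep 1 u = u := by rw [rep_succ, rep_zero, List.append_nil]
    have e2 : rep 2 u = u ++ u := by rw [rep_succ, e1]
    rw [e1] at h1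
    rw [e2, avoid_append] at h2
    set x1 := run (rstep ψ cls c) x u with hx1
    have hph : x.2 = x1.2 := by rw [hx1, run_rstep_snd, hu, mul_one]
    have hx2 : run (rstep ψ cls c) x1 u = x1 := by
      rcases coupling ψ cls c hph h1 h2.2 with h | h
      · exact h.symm
      · by_cases hne : u = []
        · rw [hne]; rfl
        · rw [run_nt ψ cls c hg h hne h2.2, hx1, run_nt ψ cls c hg h hne h1]
          rfl
    have hall : ∀ j, run (rstep ψ cls c) x1 (rep j u) = x1 := by
      intro j
      induction j with
      | zero => rfl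
      | succ j ih => rw [rep_succ, run_append, hx2, ih]
    obtain ⟨k', rfl⟩ : ∃ k', k = k' + 1 := ⟨k - 1, by omega⟩
    have := Avoid.run_eq _ _ hA
    rw [rep_succ, run_append, ← hx1, hall] at this
    exact this
  · exfalso
    obtain ⟨z1, hz1, hz1ne⟩ := exists_ne_one_of_ev_ne_one ψ hu
    have hpos := movers_pos_of_mem ψ hz1 hz1ne
    obtain ⟨j, hj⟩ := hgen (t⁻¹ * x.2⁻¹ * c)
    have hs : x.2 * t ^ (j + 1) = c := by
      rw [pow_succ', hj]; group
    have h := movers_le_of_avoid ψ cls c t h01 ho (hrep (j + 1)) hs
    rw [movers_rep] at h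
    have : j + 1 ≤ (j + 1) * movers ψ u := Nat.le_mul_of_pos_right _ hpos
    omega

end Reset

section Exc

variable {H : Type} [Group H] (ψ : α → H) (cls : α → Cls) (c : H)
  {Θ : Type} (step : Θ → α → Θ) (ar : Θ → Bool) (ph : Θ → H)
  (hg : Good ψ cls) (har : ∀ θ z, ar (step θ z) = arm (ar θ) (cls z))
  (hph : ∀ θ z, ph (step θ z) = ph θ * ψ z)

include hg har hph in
theorem meas_cut_of [Finite α] [Finite H] (hcf : CounterFreeOff (rstep ψ cls c) (rbase c))
    (n : ℕ) [NeZero n] (θ₀ : Θ) :
    Meas (fun w : List α => (run (rstep ψ cls c) (some (ar θ₀), ph θ₀) w,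
      (cnt step (fun θ z => ph θ * ψ z = c ∧ exc (ar θ) (cls z) = false) θ₀ w : ZMod n))) := by
  have h := meas_run_visits (rstep ψ cls c) (rbase c) hcf n (some (ar θ₀), ph θ₀)
  refine h.congr fun w => ?_
  rw [(rel_run ψ cls c step ar ph hg har hph θ₀ (some (ar θ₀), ph θ₀) ⟨rfl, Or.inl rfl⟩ w).1]

include hph in
theorem meas_arrivals_of [Finite α] [Finite H]
    (hcf : CounterFreeOff (rstep ψ (fun _ => Cls.o) c) (rbase c)) (n : ℕ) [NeZero n] (θ₀ : Θ) :
    Meas (fun w : List α => (cnt step (fun θ z => ph θ * ψ z = c) θ₀ w : ZMod n)) := by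
  have hg' : Good ψ (fun _ : α => Cls.o) :=
    ⟨fun z h => by simp at h, fun z h => by simp at h, fun z h => by simp at h⟩
  have h := (meas_cut_of ψ (fun _ => Cls.o) c step (fun _ => false) ph hg' (fun _ _ => rfl) hph hcf n
    θ₀).comp Prod.snd
  refine h.congr fun w => ?_
  congr 1
  exact cnt_congr step (fun s z => by simp [exc]) θ₀ w

include hg har hph in
theorem meas_exc_of [Finite α] [Finite H] (hcf : CounterFreeOff (rstep ψ cls c) (rbase c))
    (hcf' : CounterFreeOff (rstep ψ (fun _ => Cls.o) c) (rbase c)) (n : ℕ) [NeZero n] (θ₀ : Θ) :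
    Meas (fun w : List α =>
      (cnt step (fun θ z => ph θ * ψ z = c ∧ exc (ar θ) (cls z) = true) θ₀ w : ZMod n)) := by
  have h1 := meas_arrivals_of ψ c step ph hph hcf' n θ₀
  have h2 := (meas_cut_of ψ cls c step ar ph hg har hph hcf n θ₀).comp Prod.snd
  refine (h1.sub h2).congr fun w => ?_
  have := cnt_split step (P := fun θ z => ph θ * ψ z = c)
    (P1 := fun θ z => ph θ * ψ z = c ∧ exc (ar θ) (cls z) = false)
    (P2 := fun θ z => ph θ * ψ z = c ∧ exc (ar θ) (cls z) = true)
    (fun s z => by
      cases exc (ar s) (cls z) <;> simp)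
    (fun s z => by
      cases exc (ar s) (cls z) <;> simp) θ₀ w
  rw [this]
  push_cast
  ring

end Exc

open Classical in
/-- the counter modulo `m` of the letters that satisfy `S` -/
noncomputable def cstep (S : α → Prop) (m : ℕ) (g : ZMod m) (z : α) : ZMod m :=
  g + (if S z then 1 else 0)

/-- The number modulo `n` of the positions of a word that carry the letter `x` and such that the
number of letters satisfying `S` before that position is `t` modulo `m`; the letter `x` itself does
not satisfy `S`. -/
theorem meas_neutral_mono [Finite α] (S : α → Prop) (x : α) (hx : ¬ S x) (m n : ℕ) [NeZero m]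
    [NeZero n] (t g₀ : ZMod m) :
    Meas (fun w : List α => (cnt (cstep S m) (fun g z => g = t ∧ z = x) g₀ w : ZMod n)) := by
  classical
  set ψ : α → Multiplicative (ZMod m) := fun z => if S z then Multiplicative.ofAdd 1 else 1 with hψ
  set cls : α → Cls := fun z => if z = x then Cls.z else Cls.o with hcls
  have hψx : ψ x = 1 := by simp [hψ, hx]
  have hg : Good ψ cls :=
    ⟨fun z h => by
      exfalso
      by_cases hz : z = x <;> simp [hcls, hz] at h,
     fun z h => by
      by_cases hz : z = x
      · rw [hz, hψx]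
      · simp [hcls, hz] at h,
     fun z h => by
      exfalso
      by_cases hz : z = x <;> simp [hcls, hz] at h⟩
  have hg' : Good ψ (fun _ : α => Cls.o) :=
    ⟨fun z h => by simp at h, fun z h => by simp at h, fun z h => by simp at h⟩
  have h01 : ∀ z, ψ z = 1 ∨ ψ z = Multiplicative.ofAdd 1 := by
    intro z
    by_cases hz : S z
    · right; simp [hψ, hz]
    · left; simp [hψ, hz]
  have ho : ∀ z, ψ z ≠ 1 → cls z = Cls.o := by
    intro z hz
    have : z ≠ x := by
      rintro rfl
      exact hz hψx
    simp [hcls, this]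
  have hgen : ∀ d : Multiplicative (ZMod m), ∃ j : ℕ, (Multiplicative.ofAdd (1 : ZMod m)) ^ j = d := by
    intro d
    refine ⟨(Multiplicative.toAdd d).val, ?_⟩
    rw [← ofAdd_nsmul]
    simp
  have hcf := counterFreeOff_rstep_mono ψ cls (Multiplicative.ofAdd t) (Multiplicative.ofAdd 1) h01 ho
    hg hgen
  have hcf' := counterFreeOff_rstep_mono ψ (fun _ => Cls.o) (Multiplicative.ofAdd t)
    (Multiplicative.ofAdd 1) h01 (fun _ _ => rfl) hg' hgen
  have hm := meas_exc_of ψ cls (Multiplicative.ofAdd t) (cstep S m) (fun _ => false)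
    (fun g => Multiplicative.ofAdd g) hg
    (fun θ z => by by_cases hz : z = x <;> simp [hcls, hz, arm])
    (fun θ z => by
      by_cases hz : S z
      · simp [cstep, hψ, hz, ofAdd_add]
      · simp [cstep, hψ, hz]) hcf hcf' n g₀
  refine hm.congr fun w => ?_
  congr 1
  refine cnt_congr _ (fun s z => ?_) _ _
  by_cases hz : z = x
  · subst hz
    simp [hcls, exc, hψx]
  · simp [hcls, hz, exc]

end Vale.Agent.Lib.P329
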