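import Vale.Agent.Lib.P329.C3.Defs
import Vale.Agent.Lib.P329.C3.Mono

/-!
# Module A: the sums `tsum` of polynomials of degree at most two in the letter counts

FROZEN STATEMENTS: `meas_tsum_one`, `meas_tsum_lin`, `meas_tsum_choose`, `meas_tsum_mul`.
`Meas f` (file `Meas.lean`) says that all level sets of `f` are languages of generalized star height
at most one; API: `Meas.comp`, `Meas.prodMk`, `Meas.pi`, `Meas.add`, `Meas.sub`, `Meas.sum`,
`Meas.map₂`, `Meas.congr`, `meas_const`.  `cnt δ P s w` (file `Visit.lean`) counts the steps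
`(state, letter)` of the run of `δ` from `s` along `w` that satisfy `P`; API: `cnt_nil`, `cnt_cons`,
`cnt_cons_ind`, `cnt_sim`, `cnt_congr`, `cnt_sum_fiber` (files `Core.lean`, `Count.lean`).
Black box: `meas_neutral_mono` (file `Mono.lean`), `meas_occ_any` (file `Elementary.lean`; import it
if you want it).

Route.
(0) Key lemma: if `S : α → Prop`, `¬ S x`, `ph : (α → ℕ) → ZMod m` satisfies
`ph (bump c a) = cstep S m (ph c) a`, and `(F c : ZMod n) = f (ph c)` for all `c`, then
`(tsum F x c w : ZMod n) = ∑ t : ZMod m, f t * (cnt (cstep S m) (fun g z => g = t ∧ z = x) (ph c) w : ZMod n)`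
(induction on `w`), hence `Meas (fun w => (tsum F x c w : ZMod n))`.
(1) `meas_tsum_lin`: `S = (· = z)`, `m = n`, `ph c = c z`, `f = id`.
(2) `meas_tsum_choose`: `S = (· = z)`, `m = 2 * n`, `ph c = c z`,
`f t = ((t.val.choose 2 : ℕ) : ZMod n)`; needs `((k % (2 * n)).choose 2 : ZMod n) = (k.choose 2 : ZMod n)`.
(3) `meas_tsum_mul`, case `z' ≠ x`: `(a + b).choose 2 = a.choose 2 + b.choose 2 + a * b`, use (0) with
`S = (fun y => y = z ∨ y = z')`, `ph c = c z + c z'`, `m = 2 * n`, and (2) twice.
(4) `meas_tsum_mul`, case `z' = x`: by induction on `w` (generalizing `c`)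
`tsum (fun c => c x * c z) x c w + tsum (fun c => (c x).choose 2) z c w + (c x).choose 2 * c z
   = (c' x).choose 2 * c' z` where `c'` is the final count vector,
`c' y = c y + tsum (fun _ => 1) y c w`; then use (2) with the roles of `x` and `z` exchanged, and
`meas_tsum_one` modulo `2 * n`.
(5) `meas_tsum_one`: (0) with `S = fun _ => False`, `m = 1`, or `meas_occ_any`.
-/

namespace Vale.Agent.Lib.P329

variable {α : Type}

/-! ### auxiliary lemmas -/

theorem sums_tsum_congr {F G : (α → ℕ) → ℕ} (h : ∀ c, F c = G c) (x : α) (c : α → ℕ)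
    (w : List α) : tsum F x c w = tsum G x c w := by
  have : F = G := funext h
  rw [this]

theorem sums_tsum_add (F G : (α → ℕ) → ℕ) (x : α) (c : α → ℕ) (w : List α) :
    tsum (fun c => F c + G c) x c w = tsum F x c w + tsum G x c w := by
  induction w generalizing c with
  | nil => simp [tsum_nil]
  | cons a w ih =>
    rw [tsum_cons, tsum_cons, tsum_cons, ih]
    by_cases h : a = x
    · simp only [if_pos h]; ring
    · simp only [if_neg h]; ring

theorem sums_key (S : α → Prop) (x : α) (m n : ℕ) [NeZero m] (F : (α → ℕ) → ℕ)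
    (ph : (α → ℕ) → ZMod m) (f : ZMod m → ZMod n)
    (hph : ∀ c a, ph (bump c a) = cstep S m (ph c) a) (hF : ∀ c, (F c : ZMod n) = f (ph c))
    (c : α → ℕ) (w : List α) :
    (tsum F x c w : ZMod n)
      = ∑ t : ZMod m, f t * (cnt (cstep S m) (fun g z => g = t ∧ z = x) (ph c) w : ZMod n) := by
  induction w generalizing c with
  | nil => simp [tsum_nil, cnt_nil]
  | cons a w ih =>
    rw [tsum_cons]
    simp only [cnt_cons]
    push_cast
    rw [ih (bump c a), hph]
    simp only [mul_add, Finset.sum_add_distrib]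
    congr 1
    by_cases h : a = x
    · simp only [h, and_true]
      rw [hF]
      simp
    · simp [h]

theorem sums_meas [Finite α] (S : α → Prop) (x : α) (hx : ¬ S x) (m n : ℕ) [NeZero m] [NeZero n]
    (F : (α → ℕ) → ℕ) (ph : (α → ℕ) → ZMod m) (f : ZMod m → ZMod n)
    (hph : ∀ c a, ph (bump c a) = cstep S m (ph c) a) (hF : ∀ c, (F c : ZMod n) = f (ph c))
    (c : α → ℕ) : Meas (fun w : List α => (tsum F x c w : ZMod n)) := by
  have h := Meas.sum (Finset.univ : Finset (ZMod m))
    (f := fun t w => f t * (cnt (cstep S m) (fun g z => g = t ∧ z = x) (ph c) w : ZMod n))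
    (fun t _ => (meas_neutral_mono S x hx m n t (ph c)).comp (fun v => f t * v))
  exact h.congr (fun w => sums_key S x m n F ph f hph hF c w)

theorem sums_add_choose_two (a b : ℕ) :
    (a + b).choose 2 = a.choose 2 + b.choose 2 + a * b := by
  induction b with
  | zero => simp
  | succ b ih =>
    rw [← add_assoc, Nat.choose_succ_succ' (a + b) 1, Nat.choose_succ_succ' b 1, ih,
      Nat.choose_one_right, Nat.choose_one_right]
    ring

theorem sums_two_mul_choose_two (j : ℕ) : (2 * j).choose 2 = j * (2 * j - 1) := by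
  rw [Nat.choose_two_right, Nat.mul_assoc, Nat.mul_div_cancel_left _ (by norm_num)]

theorem sums_choose_mod (n k : ℕ) :
    (((k % (2 * n)).choose 2 : ℕ) : ZMod n) = ((k.choose 2 : ℕ) : ZMod n) := by
  conv_rhs => rw [← Nat.div_add_mod k (2 * n)]
  rw [sums_add_choose_two, Nat.mul_assoc, sums_two_mul_choose_two]
  push_cast
  simp

theorem sums_choose_val (n k : ℕ) :
    (((((k : ℕ) : ZMod (2 * n)).val).choose 2 : ℕ) : ZMod n) = ((k.choose 2 : ℕ) : ZMod n) := by
  rw [ZMod.val_natCast, sums_choose_mod]

/-! ### the frozen statements -/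

theorem meas_tsum_one [Finite α] (n : ℕ) [NeZero n] (x : α) :
    Meas (fun w : List α => (tsum (fun _ => 1) x 0 w : ZMod n)) :=
  sums_meas (fun _ => False) x (fun h => h) 1 n (fun _ => 1) (fun _ => 0) (fun _ => 1)
    (fun _ _ => Subsingleton.elim _ _) (fun _ => by simp) 0

theorem meas_tsum_lin [Finite α] (n : ℕ) [NeZero n] (x z : α) (hz : z ≠ x) :
    Meas (fun w : List α => (tsum (fun c => c z) x 0 w : ZMod n)) := by
  refine sums_meas (fun y => y = z) x (fun h => hz h.symm) n n (fun c => c z)
    (fun c => (c z : ZMod n)) id ?_ (fun _ => rfl) 0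
  intro c a
  unfold cstep
  by_cases h : a = z
  · rw [if_pos h, h, bump_same]; push_cast; rfl
  · rw [if_neg h, bump_ne c (fun e => h e.symm)]; simp

theorem meas_tsum_choose [Finite α] (n : ℕ) [NeZero n] (x z : α) (hz : z ≠ x) :
    Meas (fun w : List α => (tsum (fun c => (c z).choose 2) x 0 w : ZMod n)) := by
  have : NeZero (2 * n) := ⟨by have := NeZero.ne n; omega⟩
  refine sums_meas (fun y => y = z) x (fun h => hz h.symm) (2 * n) n (fun c => (c z).choose 2)
    (fun c => (c z : ZMod (2 * n))) (fun t => ((t.val.choose 2 : ℕ) : ZMod n)) ?_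
    (fun c => (sums_choose_val n (c z)).symm) 0
  intro c a
  unfold cstep
  by_cases h : a = z
  · rw [if_pos h, h, bump_same]; push_cast; rfl
  · rw [if_neg h, bump_ne c (fun e => h e.symm)]; simp

theorem sums_meas_pair [Finite α] (n : ℕ) [NeZero n] (x z z' : α) (hz : z ≠ x) (hz' : z' ≠ z)
    (hx' : z' ≠ x) :
    Meas (fun w : List α => (tsum (fun c => (c z + c z').choose 2) x 0 w : ZMod n)) := by
  have : NeZero (2 * n) := ⟨by have := NeZero.ne n; omega⟩
  refine sums_meas (fun y => y = z ∨ y = z') x
    (fun h => h.elim (fun e => hz e.symm) (fun e => hx' e.symm)) (2 * n) n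
    (fun c => (c z + c z').choose 2)
    (fun c => ((c z + c z' : ℕ) : ZMod (2 * n))) (fun t => ((t.val.choose 2 : ℕ) : ZMod n)) ?_
    (fun c => (sums_choose_val n (c z + c z')).symm) 0
  intro c a
  unfold cstep
  by_cases h : a = z
  · have h2 : z' ≠ a := by rw [h]; exact hz'
    rw [if_pos (Or.inl h), bump_ne c h2, h, bump_same]; push_cast; ring
  · by_cases h' : a = z'
    · rw [if_pos (Or.inr h'), bump_ne c (fun e => h e.symm), h', bump_same]; push_cast; ring
    · rw [if_neg (by tauto), bump_ne c (fun e => h e.symm), bump_ne c (fun e => h' e.symm)]; simp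

theorem sums_final (x z : α) (hz : z ≠ x) (c : α → ℕ) (w : List α) :
    tsum (fun c => c x * c z) x c w + tsum (fun c => (c x).choose 2) z c w
        + (c x).choose 2 * c z
      = (c x + tsum (fun _ => 1) x c w).choose 2 * (c z + tsum (fun _ => 1) z c w) := by
  induction w generalizing c with
  | nil => simp [tsum_nil]
  | cons a w ih =>
    have h := ih (bump c a)
    rw [tsum_cons, tsum_cons, tsum_cons, tsum_cons]
    by_cases hax : a = x
    · have haz : a ≠ z := by rw [hax]; exact hz.symm
      rw [if_pos hax, if_neg haz, if_pos hax, if_neg haz]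
      rw [hax] at h ⊢
      rw [bump_same, bump_ne c hz, Nat.choose_succ_succ' (c x) 1, Nat.choose_one_right] at h
      simp only [Nat.reduceAdd] at h
      rw [← add_assoc (c x) 1]
      simp only [zero_add]
      rw [← h]
      ring
    · by_cases haz : a = z
      · rw [if_neg hax, if_pos haz, if_neg hax, if_pos haz]
        rw [haz] at h ⊢
        rw [bump_same, bump_ne c hz.symm] at h
        rw [← add_assoc (c z) 1]
        simp only [zero_add]
        rw [← h]
        ring
      · rw [if_neg hax, if_neg haz, if_neg hax, if_neg haz]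
        rw [bump_ne c (fun e => hax e.symm), bump_ne c (fun e => haz e.symm)] at h
        simp only [zero_add]
        rw [← h]

theorem meas_tsum_mul [Finite α] (n : ℕ) [NeZero n] (x z z' : α) (hz : z ≠ x) (hz' : z' ≠ z) :
    Meas (fun w : List α => (tsum (fun c => c z' * c z) x 0 w : ZMod n)) := by
  by_cases hx' : z' = x
  · subst hx'
    have : NeZero (2 * n) := ⟨by have := NeZero.ne n; omega⟩
    have h1 : Meas (fun w : List α =>
        (((tsum (fun _ => 1) z' 0 w).choose 2 : ℕ) : ZMod n)) :=
      ((meas_tsum_one (2 * n) z').comp (fun t => ((t.val.choose 2 : ℕ) : ZMod n))).congr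
        (fun w => (sums_choose_val n _).symm)
    have h2 := meas_tsum_one n z
    have h3 := meas_tsum_choose n z z' hz.symm
    refine ((h1.map₂ h2 (· * ·)).sub h3).congr (fun w => ?_)
    have h := sums_final z' z hz 0 w
    simp only [Pi.zero_apply, zero_add, Nat.choose_zero_succ, zero_mul, add_zero] at h
    have h' := congrArg (fun k : ℕ => (k : ZMod n)) h
    push_cast at h'
    rw [← h']
    ring
  · have h1 := sums_meas_pair n x z z' hz hz' hx'
    have h2 := meas_tsum_choose n x z hz
    have h3 := meas_tsum_choose n x z' hx'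
    refine ((h1.sub h2).sub h3).congr (fun w => ?_)
    have e : tsum (fun c => (c z + c z').choose 2) x 0 w
        = tsum (fun c => (c z).choose 2) x 0 w + tsum (fun c => (c z').choose 2) x 0 w
          + tsum (fun c => c z' * c z) x 0 w := by
      rw [← sums_tsum_add, ← sums_tsum_add]
      exact sums_tsum_congr (fun c => by rw [sums_add_choose_two, mul_comm (c z)]) x 0 w
    rw [e]
    push_cast
    ring

end Vale.Agent.Lib.P329
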