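import Vale.Agent.Lib.P329.C3.Group
import Vale.Agent.Lib.P329.C3.Sums

/-!
# Groups that are nilpotent of class at most three
-/

namespace Vale.Agent.Lib.P329

open scoped commutatorElement

variable {α : Type}

theorem Meas.of_factor {T T' : Type} [Finite T] {f : List α → T} (hf : Meas f)
    {F : List α → T'} (h : ∀ w w', f w = f w' → F w = F w') : Meas F := by
  have : Nonempty T' := ⟨F []⟩
  obtain ⟨g, hg⟩ := (Function.factorsThrough_iff F).1 (fun w w' hw => h w w' hw)
  exact (hf.comp g).congr fun w => congrFun hg w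

open Classical in
theorem meas_prod_class3 [Finite α] {G : Type} [Group G] [Finite G]
    (h3 : ∀ a b c d : G, ⁅⁅⁅a, b⁆, c⁆, d⁆ = 1) (φ : α → G) :
    Meas (fun w : List α => (w.map φ).prod) := by
  have hM : NeZero (Nat.card G) := ⟨Nat.card_pos.ne'⟩
  set M := Nat.card G with hMdef
  have m0 : Meas (fun w : List α => fun z : α => (tsum (fun _ => 1) z 0 w : ZMod M)) :=
    Meas.pi (fun z => meas_tsum_one M z)
  have m1 : Meas (fun w : List α => fun p : α × α =>
      if p.2 ≠ p.1 then (tsum (fun c => c p.2) p.1 0 w : ZMod M) else 0) := by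
    refine Meas.pi (fun p => ?_)
    by_cases hp : p.2 ≠ p.1
    · simp only [if_pos hp]; exact meas_tsum_lin M p.1 p.2 hp
    · simp only [if_neg hp]; exact meas_const 0
  have m2 : Meas (fun w : List α => fun p : α × α =>
      if p.2 ≠ p.1 then (tsum (fun c => (c p.2).choose 2) p.1 0 w : ZMod M) else 0) := by
    refine Meas.pi (fun p => ?_)
    by_cases hp : p.2 ≠ p.1
    · simp only [if_pos hp]; exact meas_tsum_choose M p.1 p.2 hp
    · simp only [if_neg hp]; exact meas_const 0
  have m4 : Meas (fun w : List α => fun p : α × α × α =>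
      if p.2.1 ≠ p.1 ∧ p.2.2 ≠ p.2.1 then
        (tsum (fun c => c p.2.2 * c p.2.1) p.1 0 w : ZMod M) else 0) := by
    refine Meas.pi (fun p => ?_)
    by_cases hp : p.2.1 ≠ p.1 ∧ p.2.2 ≠ p.2.1
    · simp only [if_pos hp]; exact meas_tsum_mul M p.1 p.2.1 p.2.2 hp.1 hp.2
    · simp only [if_neg hp]; exact meas_const 0
  refine ((m0.prodMk m1).prodMk (m2.prodMk m4)).of_factor ?_
  intro w w' h
  simp only [Prod.mk.injEq] at h
  obtain ⟨⟨e0, e1⟩, e2, e4⟩ := h
  refine prod_eq_of_tsum φ h3 M (fun g => pow_card_eq_one') w w' ?_ ?_ ?_ ?_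
  · intro z
    exact (ZMod.natCast_eq_natCast_iff _ _ _).1 (congrFun e0 z)
  · intro x z hz
    have := congrFun e1 (x, z)
    simp only [if_pos hz] at this
    exact (ZMod.natCast_eq_natCast_iff _ _ _).1 this
  · intro x z hz
    have := congrFun e2 (x, z)
    simp only [if_pos hz] at this
    exact (ZMod.natCast_eq_natCast_iff _ _ _).1 this
  · intro x z z' hz hz'
    have := congrFun e4 (x, z, z')
    have hp : z ≠ x ∧ z' ≠ z := ⟨hz, hz'⟩
    simp only [if_pos hp] at this
    exact (ZMod.natCast_eq_natCast_iff _ _ _).1 this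

/-- **Nilpotent groups of class at most three.** -/
theorem heightLE_of_class3 [Finite α] {G : Type} [Group G] [Finite G] [Group.IsNilpotent G]
    (hc : Group.nilpotencyClass G ≤ 3) (φ : α → G) (S : Set G) :
    HeightLE 1 ({w | (w.map φ).prod ∈ S} : Language α) := by
  have hbot : (⊤ : Subgroup G).lowerCentralSeries 3 = ⊥ :=
    Subgroup.lowerCentralSeries_eq_bot_iff_nilpotencyClass_le.2 hc
  have h3 : ∀ a b c d : G, ⁅⁅⁅a, b⁆, c⁆, d⁆ = 1 := by
    intro a b c d
    have h0 : a ∈ (⊤ : Subgroup G).lowerCentralSeries 0 := by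
      rw [Subgroup.lowerCentralSeries_zero]; exact Subgroup.mem_top a
    have h1 : ⁅a, b⁆ ∈ (⊤ : Subgroup G).lowerCentralSeries 1 := by
      rw [Subgroup.lowerCentralSeries_succ]
      exact Subgroup.commutator_mem_commutator h0 (Subgroup.mem_top b)
    have h2 : ⁅⁅a, b⁆, c⁆ ∈ (⊤ : Subgroup G).lowerCentralSeries 2 := by
      rw [Subgroup.lowerCentralSeries_succ]
      exact Subgroup.commutator_mem_commutator h1 (Subgroup.mem_top c)
    have h4 : ⁅⁅⁅a, b⁆, c⁆, d⁆ ∈ (⊤ : Subgroup G).lowerCentralSeries 3 := by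
      rw [Subgroup.lowerCentralSeries_succ]
      exact Subgroup.commutator_mem_commutator h2 (Subgroup.mem_top d)
    rw [hbot] at h4
    exact Subgroup.mem_bot.1 h4
  exact (meas_prod_class3 h3 φ).preimage S

end Vale.Agent.Lib.P329
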