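import Vale.Agent.Lib.P329.C3.Defs

/-!
# Module G: products in a group that is nilpotent of class at most three

FROZEN STATEMENT: `prod_eq_of_tsum`.

Route.  Let `N` be the set of products of commutators.  By the hypothesis `h3` (all commutators of
weight four are trivial) triple commutators are central, `N` is commutative (three subgroups
lemma, `Subgroup.commutator_commutator_eq_bot_of_rotate`, or Hall-Witt by hand), and for `n` in `N`
the map `g => [g, n]` is multiplicative with central values.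
Fix an enumeration `l` of the letters (`Finite α`), put `E c = (l.map (fun z => φ z ^ c z)).prod`
and `K x c = E c * φ x * (E (bump c x))⁻¹`.  By induction on `w`, generalizing `c`,
`E c * (w.map φ).prod = R c w * E (c + counts of w)` with `R c [] = 1`,
`R c (x :: w) = K x c * R (bump c x) w`.
With `l = l1 ++ x :: l2`, `A = E_{l1} c`, `B = E_{l2} c` one has
`K x c = (A * φ x ^ c x) * [B, φ x] * (A * φ x ^ c x)⁻¹`, and, writing `q z = [φ z, φ x]`,
`d g n = [g, n]`,
`[g ^ m, h] = [g, h] ^ m * (d g [g, h]) ^ (m.choose 2)`, `[a * b, h] = a [b, h] a⁻¹ * [a, h]`,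
`g ^ m * n * g ^ (-m) = n * (d g n) ^ m`.  Hence
`K x c = ∏_{z after x in l} ( q z ^ c z * (d (φ z) (q z)) ^ ((c z).choose 2)
            * ∏_{z' before z in l} (d (φ z') (q z)) ^ (c z' * c z) )`.
All factors commute, so `R 0 w` is the product of fixed elements raised to the powers
`tsum (fun c => c z) x 0 w`, `tsum (fun c => (c z).choose 2) x 0 w`,
`tsum (fun c => c z' * c z) x 0 w` (with `z ≠ x`, `z' ≠ z`), and `E` only depends on the counts
`tsum (fun _ => 1) z 0 w`; all exponents only matter modulo `M`.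
-/

namespace Vale.Agent.Lib.P329

open scoped commutatorElement

namespace C3G

section grp
variable {G : Type} [Group G]

theorem c3_lcs (h3 : ∀ a b c d : G, ⁅⁅⁅a, b⁆, c⁆, d⁆ = 1) :
    Subgroup.lowerCentralSeries (⊤ : Subgroup G) 3 = ⊥ := by
  rw [Subgroup.lowerCentralSeries_eq_bot_iff_upperCentralSeries_eq_top, eq_top_iff]
  intro x _
  rw [Subgroup.mem_upperCentralSeries_succ_iff]
  intro y
  rw [Subgroup.mem_upperCentralSeries_succ_iff]
  intro z
  rw [Subgroup.mem_upperCentralSeries_succ_iff]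
  intro t
  rw [Subgroup.upperCentralSeries_zero, Subgroup.mem_bot]
  exact h3 x y z t

/-- commutators with an element of the derived subgroup are central -/
theorem c3_central (h3 : ∀ a b c d : G, ⁅⁅⁅a, b⁆, c⁆, d⁆ = 1) {n : G} (hn : n ∈ commutator G)
    (g : G) : ⁅g, n⁆ ∈ Subgroup.center G := by
  have h1 : ⁅n, g⁆ ∈ Subgroup.lowerCentralSeries (⊤ : Subgroup G) 2 :=
    Subgroup.commutator_mem_commutator (H₁ := Subgroup.lowerCentralSeries (⊤ : Subgroup G) 1) hn
      (Subgroup.mem_top g)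
  have h2 : ⁅n, g⁆ ∈ Subgroup.center G := by
    rw [Subgroup.mem_center_iff]
    intro x
    have h4 : ⁅⁅n, g⁆, x⁆ ∈ Subgroup.lowerCentralSeries (⊤ : Subgroup G) 3 :=
      Subgroup.commutator_mem_commutator (H₁ := Subgroup.lowerCentralSeries (⊤ : Subgroup G) 2) h1
        (Subgroup.mem_top x)
    rw [c3_lcs h3, Subgroup.mem_bot, commutatorElement_eq_one_iff_mul_comm] at h4
    exact h4.symm
  rw [← commutatorElement_inv]
  exact Subgroup.inv_mem _ h2

theorem c3_comm (h3 : ∀ a b c d : G, ⁅⁅⁅a, b⁆, c⁆, d⁆ = 1) {n m : G} (hn : n ∈ commutator G)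
    (hm : m ∈ commutator G) : n * m = m * n := by
  have hb : ⁅⁅(⊤ : Subgroup G), (⊤ : Subgroup G)⁆, commutator G⁆ = ⊥ := by
    have e : ⁅⁅commutator G, (⊤ : Subgroup G)⁆, (⊤ : Subgroup G)⁆ = ⊥ := c3_lcs h3
    apply Subgroup.commutator_commutator_eq_bot_of_rotate
    · rw [Subgroup.commutator_comm (⊤ : Subgroup G) (commutator G)]; exact e
    · exact e
  have : ⁅n, m⁆ ∈ ⁅⁅(⊤ : Subgroup G), (⊤ : Subgroup G)⁆, commutator G⁆ :=
    Subgroup.commutator_mem_commutator hn hm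
  rw [hb, Subgroup.mem_bot, commutatorElement_eq_one_iff_mul_comm] at this
  exact this

theorem comm_mem (a b : G) : ⁅a, b⁆ ∈ commutator G :=
  Subgroup.commutator_mem_commutator (Subgroup.mem_top a) (Subgroup.mem_top b)

theorem conj_eq (g n : G) : g * n * g⁻¹ = ⁅g, n⁆ * n := by
  rw [commutatorElement_def]; group

theorem cen_comm {t : G} (ht : t ∈ Subgroup.center G) (g : G) : t * g = g * t :=
  (Subgroup.mem_center_iff.mp ht g).symm

theorem d_mul_right (h3 : ∀ a b c d : G, ⁅⁅⁅a, b⁆, c⁆, d⁆ = 1) (g : G) {n m : G}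
    (hm : m ∈ commutator G) : ⁅g, n * m⁆ = ⁅g, n⁆ * ⁅g, m⁆ := by
  have hc := c3_central h3 hm g
  have e : ⁅g, n * m⁆ = ⁅g, n⁆ * (n * ⁅g, m⁆ * n⁻¹) := by
    simp only [commutatorElement_def]; group
  rw [e]
  generalize ⁅g, m⁆ = t at hc
  rw [← cen_comm hc n, mul_assoc t, mul_inv_cancel, mul_one]

theorem d_mul_left (h3 : ∀ a b c d : G, ⁅⁅⁅a, b⁆, c⁆, d⁆ = 1) (g h : G) {n : G}
    (hn : n ∈ commutator G) : ⁅g * h, n⁆ = ⁅g, n⁆ * ⁅h, n⁆ := by
  have hc := c3_central h3 hn h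
  have e : ⁅g * h, n⁆ = (g * ⁅h, n⁆ * g⁻¹) * ⁅g, n⁆ := by
    simp only [commutatorElement_def]; group
  rw [e]
  generalize ⁅h, n⁆ = t at hc
  generalize ⁅g, n⁆ = s
  rw [← cen_comm hc g, mul_assoc t, mul_inv_cancel, mul_one, cen_comm hc]

theorem d_pow_left (h3 : ∀ a b c d : G, ⁅⁅⁅a, b⁆, c⁆, d⁆ = 1) (g : G) {n : G}
    (hn : n ∈ commutator G) (k : ℕ) : ⁅g ^ k, n⁆ = ⁅g, n⁆ ^ k := by
  induction k with
  | zero => simp
  | succ k ih => rw [pow_succ, d_mul_left h3 _ _ hn, ih, pow_succ]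

theorem d_pow_right (h3 : ∀ a b c d : G, ⁅⁅⁅a, b⁆, c⁆, d⁆ = 1) (g : G) {n : G}
    (hn : n ∈ commutator G) (k : ℕ) : ⁅g, n ^ k⁆ = ⁅g, n⁆ ^ k := by
  induction k with
  | zero => simp
  | succ k ih => rw [pow_succ, d_mul_right h3 _ hn, ih, pow_succ]

theorem d_cen (g : G) {t : G} (ht : t ∈ Subgroup.center G) : ⁅g, t⁆ = 1 := by
  rw [commutatorElement_eq_one_iff_mul_comm]; exact (cen_comm ht g).symm

theorem comm_pow (h3 : ∀ a b c d : G, ⁅⁅⁅a, b⁆, c⁆, d⁆ = 1) (g h : G) (m : ℕ) :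
    ⁅g ^ m, h⁆ = ⁅g, h⁆ ^ m * ⁅g, ⁅g, h⁆⁆ ^ (m.choose 2) := by
  have hq : ⁅g, h⁆ ∈ commutator G := comm_mem g h
  have ht : ⁅g, ⁅g, h⁆⁆ ∈ Subgroup.center G := c3_central h3 hq g
  induction m with
  | zero => simp
  | succ m ih =>
    have e : ⁅g ^ (m + 1), h⁆ = (g * ⁅g ^ m, h⁆ * g⁻¹) * ⁅g, h⁆ := by
      rw [pow_succ']; simp only [commutatorElement_def]; group
    have htm : ⁅g, ⁅g, h⁆⁆ ^ (m.choose 2) ∈ Subgroup.center G := Subgroup.pow_mem _ ht _
    have htm' : ⁅g, ⁅g, h⁆⁆ ^ (m.choose 2) ∈ commutator G :=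
      Subgroup.pow_mem _ (comm_mem _ _) _
    rw [e, conj_eq, ih, d_mul_right h3 _ htm', d_cen g htm, mul_one, d_pow_right h3 _ hq]
    have hc : (m + 1).choose 2 = m + m.choose 2 := by
      rw [Nat.choose_succ_succ' m 1]; simp
    rw [hc, pow_add ⁅g, ⁅g, h⁆⁆, pow_succ ⁅g, h⁆ m]
    have c1 := cen_comm (Subgroup.pow_mem _ ht m)
    have c2 := cen_comm htm
    generalize ⁅g, ⁅g, h⁆⁆ ^ m = u at c1
    generalize ⁅g, ⁅g, h⁆⁆ ^ (m.choose 2) = v at c2
    generalize ⁅g, h⁆ = q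
    rw [c1, mul_assoc, mul_assoc, mul_assoc, c2 (u * q), c1 q, mul_assoc]


variable {α : Type}

/-- products of `q ^ c z` with `q` in the derived subgroup and `z` an allowed letter -/
inductive Lin (L : α → Prop) : ((α → ℕ) → G) → Prop
  | one : Lin L (fun _ => 1)
  | mul (q : G) (hq : q ∈ commutator G) (z : α) (hz : L z) (κ : (α → ℕ) → G) (h : Lin L κ) :
      Lin L (fun c => q ^ c z * κ c)

/-- products of `t ^ F c` with `t` central in the derived subgroup and `F` an allowed exponent -/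
inductive Cen (A : ((α → ℕ) → ℕ) → Prop) : ((α → ℕ) → G) → Prop
  | one : Cen A (fun _ => 1)
  | mul (t : G) (ht : t ∈ Subgroup.center G) (ht' : t ∈ commutator G) (F : (α → ℕ) → ℕ)
      (hF : A F) (κ : (α → ℕ) → G) (h : Cen A κ) : Cen A (fun c => t ^ F c * κ c)

theorem Lin.mem {L : α → Prop} {κ : (α → ℕ) → G} (h : Lin L κ) (c : α → ℕ) :
    κ c ∈ commutator G := by
  induction h with
  | one => exact Subgroup.one_mem _
  | mul q hq z hz κ h ih => exact Subgroup.mul_mem _ (Subgroup.pow_mem _ hq _) ih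

theorem Cen.mem {A : ((α → ℕ) → ℕ) → Prop} {κ : (α → ℕ) → G} (h : Cen A κ) (c : α → ℕ) :
    κ c ∈ commutator G := by
  induction h with
  | one => exact Subgroup.one_mem _
  | mul t ht ht' F hF κ h ih => exact Subgroup.mul_mem _ (Subgroup.pow_mem _ ht' _) ih

theorem Cen.cen {A : ((α → ℕ) → ℕ) → Prop} {κ : (α → ℕ) → G} (h : Cen A κ) (c : α → ℕ) :
    κ c ∈ Subgroup.center G := by
  induction h with
  | one => exact Subgroup.one_mem _
  | mul t ht ht' F hF κ h ih => exact Subgroup.mul_mem _ (Subgroup.pow_mem _ ht _) ih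

theorem Lin.mono {L L' : α → Prop} (hL : ∀ z, L z → L' z) {κ : (α → ℕ) → G} (h : Lin L κ) :
    Lin L' κ := by
  induction h with
  | one => exact Lin.one
  | mul q hq z hz κ h ih => exact Lin.mul q hq z (hL z hz) κ ih

theorem Lin.mul' {L : α → Prop} {κ κ' : (α → ℕ) → G} (h : Lin L κ) (h' : Lin L κ') :
    Lin L (fun c => κ c * κ' c) := by
  induction h with
  | one => simpa using h'
  | mul q hq z hz κ h ih =>
    have := Lin.mul q hq z hz _ ih
    simpa only [mul_assoc] using this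

theorem Cen.mul' {A : ((α → ℕ) → ℕ) → Prop} {κ κ' : (α → ℕ) → G} (h : Cen A κ) (h' : Cen A κ') :
    Cen A (fun c => κ c * κ' c) := by
  induction h with
  | one => simpa using h'
  | mul t ht ht' F hF κ h ih =>
    have := Cen.mul t ht ht' F hF _ ih
    simpa only [mul_assoc] using this

theorem Lin.conj (h3 : ∀ a b c d : G, ⁅⁅⁅a, b⁆, c⁆, d⁆ = 1) {L : α → Prop}
    {A : ((α → ℕ) → ℕ) → Prop} (g : G) (y : α)
    (hA : ∀ z, L z → A (fun c => c y * c z)) {κ : (α → ℕ) → G} (h : Lin L κ) :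
    ∃ τ : (α → ℕ) → G, Cen A τ ∧ ∀ c, g ^ c y * κ c * (g ^ c y)⁻¹ = κ c * τ c := by
  induction h with
  | one => exact ⟨fun _ => 1, Cen.one, fun c => by simp⟩
  | mul q hq z hz κ h ih =>
    obtain ⟨τ, hτ, e⟩ := ih
    refine ⟨fun c => ⁅g, q⁆ ^ (c y * c z) * τ c,
      Cen.mul _ (c3_central h3 hq g) (comm_mem _ _) _ (hA z hz) _ hτ, fun c => ?_⟩
    have e1 : g ^ c y * (q ^ c z * κ c) * (g ^ c y)⁻¹
        = (g ^ c y * q ^ c z * (g ^ c y)⁻¹) * (g ^ c y * κ c * (g ^ c y)⁻¹) := by group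
    beta_reduce
    rw [e1, e c, conj_eq, d_pow_left h3 _ (Subgroup.pow_mem _ hq _), d_pow_right h3 _ hq, ← pow_mul,
      mul_comm (c z) (c y)]
    have hc := cen_comm (Subgroup.pow_mem _ (c3_central h3 hq g) (c y * c z))
    generalize ⁅g, q⁆ ^ (c y * c z) = u at hc
    rw [hc, mul_assoc, mul_assoc, ← mul_assoc u, hc (κ c), mul_assoc]

/-- linear part times central part -/
def LC (L : α → Prop) (A : ((α → ℕ) → ℕ) → Prop) (κ : (α → ℕ) → G) : Prop :=
  ∃ l τ : (α → ℕ) → G, Lin L l ∧ Cen A τ ∧ ∀ c, κ c = l c * τ c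

theorem LC.one {L : α → Prop} {A : ((α → ℕ) → ℕ) → Prop} : LC L A (fun _ => (1 : G)) :=
  ⟨_, _, Lin.one, Cen.one, fun _ => by simp⟩

theorem LC.congr {L : α → Prop} {A : ((α → ℕ) → ℕ) → Prop} {κ κ' : (α → ℕ) → G}
    (h : LC L A κ) (e : ∀ c, κ' c = κ c) : LC L A κ' := by
  have : κ' = κ := funext e
  rw [this]; exact h

theorem LC.mono {L L' : α → Prop} {A : ((α → ℕ) → ℕ) → Prop} (hL : ∀ z, L z → L' z)
    {κ : (α → ℕ) → G} (h : LC L A κ) : LC L' A κ := by
  obtain ⟨l, τ, hl, hτ, e⟩ := h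
  exact ⟨l, τ, hl.mono hL, hτ, e⟩

theorem LC.mul {L : α → Prop} {A : ((α → ℕ) → ℕ) → Prop} {κ κ' : (α → ℕ) → G}
    (h : LC L A κ) (h' : LC L A κ') : LC L A (fun c => κ c * κ' c) := by
  obtain ⟨l, τ, hl, hτ, e⟩ := h
  obtain ⟨l', τ', hl', hτ', e'⟩ := h'
  refine ⟨_, _, hl.mul' hl', hτ.mul' hτ', fun c => ?_⟩
  beta_reduce
  rw [e, e']
  have hc := cen_comm (hτ.cen c)
  rw [mul_assoc, ← mul_assoc (τ c), hc, mul_assoc, mul_assoc]

theorem LC.conj (h3 : ∀ a b c d : G, ⁅⁅⁅a, b⁆, c⁆, d⁆ = 1) {L : α → Prop}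
    {A : ((α → ℕ) → ℕ) → Prop} (g : G) (y : α)
    (hA : ∀ z, L z → A (fun c => c y * c z)) {κ : (α → ℕ) → G} (h : LC L A κ) :
    LC L A (fun c => g ^ c y * κ c * (g ^ c y)⁻¹) := by
  obtain ⟨l, τ, hl, hτ, e⟩ := h
  obtain ⟨τ', hτ', e'⟩ := hl.conj h3 g y hA
  refine ⟨l, _, hl, hτ'.mul' hτ, fun c => ?_⟩
  beta_reduce
  rw [e]
  have hc := cen_comm (hτ.cen c)
  have e1 : g ^ c y * (l c * τ c) * (g ^ c y)⁻¹ = (g ^ c y * l c * (g ^ c y)⁻¹) * τ c := by
    rw [mul_assoc (g ^ c y * l c), ← hc, mul_assoc, mul_assoc, mul_assoc, hc, mul_assoc]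
  rw [e1, e' c, mul_assoc]

theorem LC.mem {L : α → Prop} {A : ((α → ℕ) → ℕ) → Prop} {κ : (α → ℕ) → G}
    (h : LC L A κ) (c : α → ℕ) : κ c ∈ commutator G := by
  obtain ⟨l, τ, hl, hτ, e⟩ := h
  rw [e]; exact Subgroup.mul_mem _ (hl.mem c) (hτ.mem c)

theorem LC.comm_pow (h3 : ∀ a b c d : G, ⁅⁅⁅a, b⁆, c⁆, d⁆ = 1) {L : α → Prop}
    {A : ((α → ℕ) → ℕ) → Prop} (g h : G) (z : α) (hz : L z)
    (hA : A (fun c => (c z).choose 2)) : LC L A (fun c => ⁅g ^ c z, h⁆) := by
  refine ⟨fun c => ⁅g, h⁆ ^ c z * 1, fun c => ⁅g, ⁅g, h⁆⁆ ^ ((c z).choose 2) * 1,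
    Lin.mul _ (comm_mem _ _) z hz _ Lin.one,
    Cen.mul _ (c3_central h3 (comm_mem _ _) g) (comm_mem _ _) _ hA _ Cen.one, fun c => ?_⟩
  beta_reduce
  rw [C3G.comm_pow h3, mul_one, mul_one]

/-- the ordered product of the powers of the letters -/
def EE (φ : α → G) (l : List α) (c : α → ℕ) : G := (l.map (fun z => φ z ^ c z)).prod

theorem EE_nil (φ : α → G) (c : α → ℕ) : EE φ [] c = 1 := rfl

theorem EE_cons (φ : α → G) (z : α) (l : List α) (c : α → ℕ) :
    EE φ (z :: l) c = φ z ^ c z * EE φ l c := by simp [EE]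

theorem EE_append (φ : α → G) (l l' : List α) (c : α → ℕ) :
    EE φ (l ++ l') c = EE φ l c * EE φ l' c := by simp [EE]

theorem EE_congr (φ : α → G) (l : List α) {c c' : α → ℕ} (h : ∀ z ∈ l, φ z ^ c z = φ z ^ c' z) :
    EE φ l c = EE φ l c' := by
  unfold EE
  congr 1
  exact List.map_congr_left h

theorem LC.comm_EE (h3 : ∀ a b c d : G, ⁅⁅⁅a, b⁆, c⁆, d⁆ = 1) {A : ((α → ℕ) → ℕ) → Prop}
    (φ : α → G) (h : G) (l : List α) (hnd : l.Nodup)
    (hA2 : ∀ z ∈ l, A (fun c => (c z).choose 2))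
    (hA4 : ∀ z ∈ l, ∀ z', z' ≠ z → A (fun c => c z' * c z)) :
    LC (· ∈ l) A (fun c => ⁅EE φ l c, h⁆) := by
  induction l with
  | nil => exact LC.one.congr (fun c => by simp [EE_nil])
  | cons z l ih =>
    rw [List.nodup_cons] at hnd
    have ih' := ih hnd.2 (fun z hz => hA2 z (List.mem_cons_of_mem _ hz))
      (fun z hz => hA4 z (List.mem_cons_of_mem _ hz))
    have h1 : LC (· ∈ l) A (fun c => φ z ^ c z * ⁅EE φ l c, h⁆ * (φ z ^ c z)⁻¹) :=
      ih'.conj h3 (φ z) z (fun z' hz' => hA4 z' (List.mem_cons_of_mem _ hz') z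
        (fun e => hnd.1 (e ▸ hz')))
    have h2 : LC (· ∈ z :: l) A (fun c => ⁅φ z ^ c z, h⁆) :=
      LC.comm_pow h3 (φ z) h z List.mem_cons_self (hA2 z List.mem_cons_self)
    refine ((h1.mono (fun z' hz' => List.mem_cons_of_mem _ hz')).mul h2).congr (fun c => ?_)
    rw [EE_cons]
    simp only [commutatorElement_def]; group

theorem LC.conj_EE (h3 : ∀ a b c d : G, ⁅⁅⁅a, b⁆, c⁆, d⁆ = 1) {L : α → Prop}
    {A : ((α → ℕ) → ℕ) → Prop} (φ : α → G) (l : List α)
    (hA : ∀ y ∈ l, ∀ z, L z → A (fun c => c y * c z)) {κ : (α → ℕ) → G} (h : LC L A κ) :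
    LC L A (fun c => EE φ l c * κ c * (EE φ l c)⁻¹) := by
  induction l with
  | nil => exact h.congr (fun c => by simp [EE_nil])
  | cons y l ih =>
    have ih' := ih (fun y hy => hA y (List.mem_cons_of_mem _ hy))
    refine (ih'.conj h3 (φ y) y (hA y List.mem_cons_self)).congr (fun c => ?_)
    rw [EE_cons]; group

/-- running product of a family along a word -/
noncomputable def RR (κ : α → (α → ℕ) → G) : (α → ℕ) → List α → G
  | _, [] => 1
  | c, a :: w => κ a c * RR κ (bump c a) w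

/-- final vector of letter counts -/
noncomputable def fin : (α → ℕ) → List α → (α → ℕ)
  | c, [] => c
  | c, a :: w => fin (bump c a) w

theorem fin_eq (c : α → ℕ) (w : List α) (z : α) : fin c w z = c z + tsum (fun _ => 1) z c w := by
  induction w generalizing c with
  | nil => simp [fin, tsum_nil]
  | cons a w ih =>
    rw [fin, ih, tsum_cons]
    by_cases h : a = z
    · subst h; rw [bump_same, if_pos rfl]; omega
    · rw [bump_ne c (fun e => h e.symm), if_neg h]; omega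

/-- the correction term -/
noncomputable def KK (φ : α → G) (l : List α) (a : α) (c : α → ℕ) : G :=
  EE φ l c * φ a * (EE φ l (bump c a))⁻¹

theorem main_identity (φ : α → G) (l : List α) (c : α → ℕ) (w : List α) :
    EE φ l c * (w.map φ).prod = RR (KK φ l) c w * EE φ l (fin c w) := by
  induction w generalizing c with
  | nil => simp [RR, fin]
  | cons a w ih =>
    rw [List.map_cons, List.prod_cons, RR, fin, mul_assoc (KK φ l a c), ← ih, KK]
    group

theorem RR_mem {κ : α → (α → ℕ) → G} (hκ : ∀ a c, κ a c ∈ commutator G) (c : α → ℕ)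
    (w : List α) : RR κ c w ∈ commutator G := by
  induction w generalizing c with
  | nil => exact Subgroup.one_mem _
  | cons a w ih => exact Subgroup.mul_mem _ (hκ a c) (ih _)

theorem RR_mul (h3 : ∀ a b c d : G, ⁅⁅⁅a, b⁆, c⁆, d⁆ = 1) {κ κ' : α → (α → ℕ) → G}
    (hκ : ∀ a c, κ a c ∈ commutator G) (hκ' : ∀ a c, κ' a c ∈ commutator G) (c : α → ℕ)
    (w : List α) : RR (fun a c => κ a c * κ' a c) c w = RR κ c w * RR κ' c w := by
  induction w generalizing c with
  | nil => simp [RR]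
  | cons a w ih =>
    rw [RR, RR, RR, ih]
    have e := c3_comm h3 (hκ' a c) (RR_mem hκ (bump c a) w)
    rw [mul_assoc, ← mul_assoc (κ' a c), e, mul_assoc, mul_assoc]

open Classical in
/-- the family concentrated on one letter -/
noncomputable def fam (x : α) (κ : (α → ℕ) → G) : α → (α → ℕ) → G :=
  fun a c => if a = x then κ c else 1

theorem fam_mem (x : α) {κ : (α → ℕ) → G} (hκ : ∀ c, κ c ∈ commutator G) (a : α) (c : α → ℕ) :
    fam x κ a c ∈ commutator G := by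
  unfold fam; split_ifs
  · exact hκ c
  · exact Subgroup.one_mem _

theorem RR_fam_pow (x : α) (g : G) (F : (α → ℕ) → ℕ) (c : α → ℕ) (w : List α) :
    RR (fam x (fun c => g ^ F c)) c w = g ^ tsum F x c w := by
  induction w generalizing c with
  | nil => simp [RR, tsum_nil]
  | cons a w ih =>
    rw [RR, ih, tsum_cons, pow_add]
    congr 1
    unfold fam; split_ifs <;> simp

theorem RR_fam_one (x : α) (c : α → ℕ) (w : List α) :
    RR (fam x (fun _ => (1 : G))) c w = 1 := by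
  induction w generalizing c with
  | nil => simp [RR]
  | cons a w ih => rw [RR, ih]; unfold fam; split_ifs <;> simp

theorem fam_mul (x : α) (κ κ' : (α → ℕ) → G) :
    fam x (fun c => κ c * κ' c) = fun a c => fam x κ a c * fam x κ' a c := by
  funext a c; unfold fam; split_ifs <;> simp

theorem pow_congr_mod {g : G} {M a b : ℕ} (hM : g ^ M = 1) (h : a ≡ b [MOD M]) : g ^ a = g ^ b := by
  rw [pow_eq_pow_mod a hM, pow_eq_pow_mod b hM, h]

theorem Cen.same (h3 : ∀ a b c d : G, ⁅⁅⁅a, b⁆, c⁆, d⁆ = 1) (M : ℕ) (hM : ∀ g : G, g ^ M = 1)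
    (x : α) (w w' : List α) {κ : (α → ℕ) → G}
    (h : Cen (fun F => tsum F x 0 w ≡ tsum F x 0 w' [MOD M]) κ) :
    RR (fam x κ) 0 w = RR (fam x κ) 0 w' := by
  induction h with
  | one => rw [RR_fam_one, RR_fam_one]
  | mul t ht ht' F hF κ h ih =>
    have m1 : ∀ a c, fam x (fun c => t ^ F c) a c ∈ commutator G :=
      fam_mem x (fun c => Subgroup.pow_mem _ ht' _)
    have m2 : ∀ a c, fam x κ a c ∈ commutator G := fam_mem x h.mem
    rw [fam_mul, RR_mul h3 m1 m2, RR_mul h3 m1 m2, ih, RR_fam_pow, RR_fam_pow,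
      pow_congr_mod (hM t) hF]

theorem Lin.same (h3 : ∀ a b c d : G, ⁅⁅⁅a, b⁆, c⁆, d⁆ = 1) (M : ℕ) (hM : ∀ g : G, g ^ M = 1)
    (x : α) (w w' : List α) {L : α → Prop}
    (hL : ∀ z, L z → tsum (fun c => c z) x 0 w ≡ tsum (fun c => c z) x 0 w' [MOD M])
    {κ : (α → ℕ) → G} (h : Lin L κ) :
    RR (fam x κ) 0 w = RR (fam x κ) 0 w' := by
  induction h with
  | one => rw [RR_fam_one, RR_fam_one]
  | mul q hq z hz κ h ih =>
    have m1 : ∀ a c, fam x (fun c => q ^ c z) a c ∈ commutator G :=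
      fam_mem x (fun c => Subgroup.pow_mem _ hq _)
    have m2 : ∀ a c, fam x κ a c ∈ commutator G := fam_mem x h.mem
    rw [fam_mul, RR_mul h3 m1 m2, RR_mul h3 m1 m2, ih, RR_fam_pow x q (fun c => c z),
      RR_fam_pow x q (fun c => c z), pow_congr_mod (hM q) (hL z hz)]

theorem LC.same (h3 : ∀ a b c d : G, ⁅⁅⁅a, b⁆, c⁆, d⁆ = 1) (M : ℕ) (hM : ∀ g : G, g ^ M = 1)
    (x : α) (w w' : List α) {L : α → Prop}
    (hL : ∀ z, L z → tsum (fun c => c z) x 0 w ≡ tsum (fun c => c z) x 0 w' [MOD M])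
    {κ : (α → ℕ) → G} (h : LC L (fun F => tsum F x 0 w ≡ tsum F x 0 w' [MOD M]) κ) :
    RR (fam x κ) 0 w = RR (fam x κ) 0 w' := by
  obtain ⟨l, τ, hl, hτ, e⟩ := h
  have : κ = fun c => l c * τ c := funext e
  rw [this, fam_mul, RR_mul h3 (fam_mem x hl.mem) (fam_mem x hτ.mem),
    RR_mul h3 (fam_mem x hl.mem) (fam_mem x hτ.mem), hl.same h3 M hM x w w' hL,
    hτ.same h3 M hM x w w']

theorem KK_LC (h3 : ∀ a b c d : G, ⁅⁅⁅a, b⁆, c⁆, d⁆ = 1) {A : ((α → ℕ) → ℕ) → Prop}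
    (φ : α → G) (l : List α) (hnd : l.Nodup) (x : α) (hx : x ∈ l)
    (hA2 : ∀ z, z ≠ x → A (fun c => (c z).choose 2))
    (hA4 : ∀ z z', z ≠ x → z' ≠ z → A (fun c => c z' * c z)) :
    LC (fun z => z ≠ x) A (KK φ l x) := by
  obtain ⟨l1, l2, rfl⟩ := List.append_of_mem hx
  rw [List.nodup_append] at hnd
  obtain ⟨n1, n2, n3⟩ := hnd
  rw [List.nodup_cons] at n2
  have hx1 : ∀ z ∈ l1, z ≠ x := fun z hz => n3 z hz x List.mem_cons_self
  have hx2 : ∀ z ∈ l2, z ≠ x := fun z hz e => n2.1 (e ▸ hz)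
  have a0 : LC (· ∈ l2) A (fun c => ⁅EE φ l2 c, φ x⁆) :=
    LC.comm_EE h3 φ (φ x) l2 n2.2 (fun z hz => hA2 z (hx2 z hz))
      (fun z hz z' hz' => hA4 z z' (hx2 z hz) hz')
  have a1 := a0.conj h3 (φ x) x (fun z hz => hA4 z x (hx2 z hz) (fun e => hx2 z hz e.symm))
  have a2 := a1.conj_EE h3 φ l1 (fun y hy z hz => hA4 z y (hx2 z hz)
    (n3 y hy z (List.mem_cons_of_mem _ hz)))
  refine (a2.mono hx2).congr (fun c => ?_)
  have e1 : EE φ l1 (bump c x) = EE φ l1 c :=
    EE_congr φ l1 (fun z hz => by rw [bump_ne c (hx1 z hz)])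
  have e2 : EE φ l2 (bump c x) = EE φ l2 c :=
    EE_congr φ l2 (fun z hz => by rw [bump_ne c (hx2 z hz)])
  rw [KK, EE_append, EE_append, EE_cons, EE_cons, e1, e2, bump_same, pow_succ]
  simp only [commutatorElement_def]; group

theorem EE_zero (φ : α → G) (l : List α) : EE φ l 0 = 1 := by
  induction l with
  | nil => rfl
  | cons z l ih => rw [EE_cons, ih]; simp

end grp

end C3G

open C3G in
theorem prod_eq_of_tsum {α G : Type} [Finite α] [Group G] (φ : α → G)
    (h3 : ∀ a b c d : G, ⁅⁅⁅a, b⁆, c⁆, d⁆ = 1) (M : ℕ) (hM : ∀ g : G, g ^ M = 1)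
    (w w' : List α)
    (h0 : ∀ z, tsum (fun _ => 1) z 0 w ≡ tsum (fun _ => 1) z 0 w' [MOD M])
    (h1 : ∀ x z, z ≠ x → tsum (fun c => c z) x 0 w ≡ tsum (fun c => c z) x 0 w' [MOD M])
    (h2 : ∀ x z, z ≠ x →
      tsum (fun c => (c z).choose 2) x 0 w ≡ tsum (fun c => (c z).choose 2) x 0 w' [MOD M])
    (h4 : ∀ x z z', z ≠ x → z' ≠ z →
      tsum (fun c => c z' * c z) x 0 w ≡ tsum (fun c => c z' * c z) x 0 w' [MOD M]) :
    (w.map φ).prod = (w'.map φ).prod := by
  classical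
  have := Fintype.ofFinite α
  set l : List α := (Finset.univ : Finset α).toList with hl
  have hnd : l.Nodup := Finset.nodup_toList _
  have hmem : ∀ z, z ∈ l := fun z => by rw [hl, Finset.mem_toList]; exact Finset.mem_univ z
  have hLC : ∀ x, LC (fun z => z ≠ x) (fun F => tsum F x 0 w ≡ tsum F x 0 w' [MOD M])
      (KK φ l x) := fun x => KK_LC h3 φ l hnd x (hmem x) (h2 x) (h4 x)
  have hsame : ∀ x, RR (fam x (KK φ l x)) 0 w = RR (fam x (KK φ l x)) 0 w' :=
    fun x => (hLC x).same h3 M hM x w w' (h1 x)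
  have hKmem : ∀ a c, KK φ l a c ∈ commutator G := fun a c => (hLC a).mem c
  -- assemble the letters
  have hS : ∀ s : List α, s.Nodup →
      RR (fun a c => if a ∈ s then KK φ l a c else 1) 0 w
        = RR (fun a c => if a ∈ s then KK φ l a c else 1) 0 w' := by
    intro s
    induction s with
    | nil =>
      intro _
      have : (fun (a : α) (c : α → ℕ) => if a ∈ ([] : List α) then KK φ l a c else 1)
          = fun a c => (1 : G) := by funext a c; simp
      rw [this]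
      have h1' : ∀ (c : α → ℕ) (v : List α), RR (fun _ _ => (1 : G)) c v = 1 := by
        intro c v
        induction v generalizing c with
        | nil => rfl
        | cons a v ih => rw [RR, ih]; simp
      rw [h1', h1']
    | cons x s ih =>
      intro hs
      rw [List.nodup_cons] at hs
      have e : (fun (a : α) (c : α → ℕ) => if a ∈ x :: s then KK φ l a c else 1)
          = fun a c => fam x (KK φ l x) a c * (if a ∈ s then KK φ l a c else 1) := by
        funext a c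
        unfold fam
        by_cases hax : a = x
        · subst hax; simp [hs.1]
        · simp [hax]
      have m1 : ∀ a c, fam x (KK φ l x) a c ∈ commutator G := fam_mem x (hKmem x)
      have m2 : ∀ (a : α) (c : α → ℕ), (if a ∈ s then KK φ l a c else 1) ∈ commutator G := by
        intro a c; split_ifs
        · exact hKmem a c
        · exact Subgroup.one_mem _
      rw [e, RR_mul h3 m1 m2, RR_mul h3 m1 m2, hsame x, ih hs.2]
  have hK : RR (KK φ l) 0 w = RR (KK φ l) 0 w' := by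
    have e : (fun (a : α) (c : α → ℕ) => if a ∈ l then KK φ l a c else 1) = KK φ l := by
      funext a c; simp [hmem a]
    have := hS l hnd
    rwa [e] at this
  have i1 := main_identity φ l 0 w
  have i2 := main_identity φ l 0 w'
  rw [EE_zero, one_mul] at i1 i2
  rw [i1, i2, hK]
  congr 1
  refine EE_congr φ l (fun z _ => pow_congr_mod (hM _) ?_)
  rw [fin_eq, fin_eq]
  exact Nat.ModEq.add_left _ (h0 z)

end Vale.Agent.Lib.P329
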